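import Mathlib

/-!
# Comparison with radial functions via the minimum principle
-/

open InnerProductSpace Filter Topology Laplacian

namespace Vale.Agent.Lib.P100

variable {E : Type*} [NormedAddCommGroup E] [InnerProductSpace ℝ E]

/-- Second-order necessary condition at a local minimum, in one variable. -/
theorem second_deriv_nonneg_of_isLocalMin {F F' : ℝ → ℝ} {c : ℝ}
    (hmin : IsLocalMin F 0) (hF : ∀ᶠ t in 𝓝 (0 : ℝ), HasDerivAt F (F' t) t)
    (hF' : HasDerivAt F' c 0) : 0 ≤ c := by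
  by_contra hc
  push Not at hc
  have hderiv : deriv F =ᶠ[𝓝 0] F' := hF.mono (fun t ht => ht.deriv)
  have h1 : deriv (deriv F) 0 = c := by rw [hderiv.deriv_eq]; exact hF'.deriv
  have h0 : deriv F 0 = 0 := hmin.deriv_eq_zero
  have hcont : ContinuousAt F 0 := hF.self_of_nhds.continuousAt
  have hmax : IsLocalMax F 0 := isLocalMax_of_deriv_deriv_neg (by rw [h1]; exact hc) h0 hcont
  have hconst : F =ᶠ[𝓝 0] fun _ => F 0 := by
    filter_upwards [hmin, hmax] with t h1 h2 using le_antisymm h2 h1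
  have h2 : deriv F =ᶠ[𝓝 0] fun _ => 0 := by
    filter_upwards [hconst.eventuallyEq_nhds] with y hy
    rw [hy.deriv_eq]; simp
  have h3 : deriv (deriv F) 0 = 0 := by rw [h2.deriv_eq]; simp
  linarith

theorem hasDerivAt_line {f : E → ℝ} {x v : E} (hf : ContDiffAt ℝ 2 f x) :
    (∀ᶠ t in 𝓝 (0 : ℝ), HasDerivAt (fun s : ℝ => f (x + s • v)) (fderiv ℝ f (x + t • v) v) t) ∧
    HasDerivAt (fun t : ℝ => fderiv ℝ f (x + t • v) v) (iteratedFDeriv ℝ 2 f x ![v, v]) 0 := by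
  have hL : ∀ t : ℝ, HasDerivAt (fun s : ℝ => x + s • v) v t := by
    intro t
    simpa using ((hasDerivAt_id t).smul_const v).const_add x
  have hLc : Tendsto (fun s : ℝ => x + s • v) (𝓝 0) (𝓝 x) := by
    have := (hL 0).continuousAt.tendsto
    simpa using this
  constructor
  · have hev : ∀ᶠ y in 𝓝 x, ContDiffAt ℝ 2 f y := hf.eventually (by simp)
    filter_upwards [hLc.eventually hev] with t ht
    have hd : HasFDerivAt f (fderiv ℝ f (x + t • v)) (x + t • v) :=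
      (ht.differentiableAt (by simp)).hasFDerivAt
    exact hd.comp_hasDerivAt t (hL t)
  · have h1 : ContDiffAt ℝ 1 (fderiv ℝ f) x := hf.fderiv_right (by norm_num)
    have h2 : HasFDerivAt (fderiv ℝ f) (fderiv ℝ (fderiv ℝ f) x) (x + (0 : ℝ) • v) := by
      simpa using (h1.differentiableAt (by simp)).hasFDerivAt
    have h3 : HasDerivAt (fun t : ℝ => fderiv ℝ f (x + t • v)) (fderiv ℝ (fderiv ℝ f) x v) 0 :=
      h2.comp_hasDerivAt 0 (hL 0)
    have h4 := h3.clm_apply (hasDerivAt_const (0 : ℝ) v)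
    rw [iteratedFDeriv_two_apply]
    simpa using h4

theorem hasDerivAt_radial_line {g g1 : ℝ → ℝ} {g2 a b : ℝ}
    (hg : ∀ᶠ s in 𝓝 a, HasDerivAt g (g1 s) s) (hg1 : HasDerivAt g1 g2 a) :
    (∀ᶠ t in 𝓝 (0 : ℝ), HasDerivAt (fun s : ℝ => g (a + 2 * b * s + s ^ 2))
      (g1 (a + 2 * b * t + t ^ 2) * (2 * b + 2 * t)) t) ∧
    HasDerivAt (fun t : ℝ => g1 (a + 2 * b * t + t ^ 2) * (2 * b + 2 * t))
      (g2 * (2 * b) ^ 2 + g1 a * 2) 0 := by
  have hq : ∀ t : ℝ, HasDerivAt (fun s : ℝ => a + 2 * b * s + s ^ 2) (2 * b + 2 * t) t := by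
    intro t
    have h1 : HasDerivAt (fun s : ℝ => 2 * b * s) (2 * b) t := by
      simpa using (hasDerivAt_id t).const_mul (2 * b)
    have h2 : HasDerivAt (fun s : ℝ => s ^ 2) (2 * t) t := by
      simpa using hasDerivAt_pow 2 t
    simpa [add_assoc] using (h1.add h2).const_add a
  have hqc : Tendsto (fun s : ℝ => a + 2 * b * s + s ^ 2) (𝓝 0) (𝓝 a) := by
    have := (hq 0).continuousAt.tendsto
    simpa using this
  constructor
  · filter_upwards [hqc.eventually hg] with t ht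
    exact ht.comp t (hq t)
  · have h1 : HasDerivAt g1 g2 (a + 2 * b * 0 + 0 ^ 2) := by simpa using hg1
    have h2 : HasDerivAt (fun t : ℝ => g1 (a + 2 * b * t + t ^ 2)) (g2 * (2 * b + 2 * 0)) 0 :=
      HasDerivAt.comp (h₂ := g1) (0 : ℝ) h1 (hq 0)
    have h3 : HasDerivAt (fun t : ℝ => 2 * b + 2 * t) 2 0 := by
      simpa using ((hasDerivAt_id (0 : ℝ)).const_mul 2).const_add (2 * b)
    have h4 := h2.mul h3
    have h5 : g2 * (2 * b) ^ 2 + g1 a * 2 =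
        g2 * (2 * b + 2 * 0) * (2 * b + 2 * 0) + g1 (a + 2 * b * 0 + 0 ^ 2) * 2 := by
      norm_num
      ring
    rw [h5]
    exact h4

/-- At a local minimum of `u - g(‖x‖²)` the Laplacian of `u` is at least the Laplacian of the
radial function, the latter written out explicitly. -/
theorem laplacian_ge_of_isLocalMin {ι : Type*} [Fintype ι] [FiniteDimensional ℝ E]
    (bs : OrthonormalBasis ι ℝ E)
    {u : E → ℝ} {x0 : E} (hu : ContDiffAt ℝ 2 u x0) {g g1 : ℝ → ℝ} {g2 : ℝ}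
    (hg : ∀ᶠ s in 𝓝 (‖x0‖ ^ 2), HasDerivAt g (g1 s) s) (hg1 : HasDerivAt g1 g2 (‖x0‖ ^ 2))
    (hmin : IsLocalMin (fun x => u x - g (‖x‖ ^ 2)) x0) :
    4 * ‖x0‖ ^ 2 * g2 + 2 * (Fintype.card ι : ℝ) * g1 (‖x0‖ ^ 2) ≤ Δ u x0 := by
  have key : ∀ i, g2 * (2 * ⟪x0, bs i⟫_ℝ) ^ 2 + g1 (‖x0‖ ^ 2) * 2 ≤
      iteratedFDeriv ℝ 2 u x0 ![bs i, bs i] := by
    intro i
    obtain ⟨hu1, hu2⟩ := hasDerivAt_line (v := bs i) hu
    obtain ⟨hr1, hr2⟩ := hasDerivAt_radial_line (b := ⟪x0, bs i⟫_ℝ) hg hg1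
    have hLc : Tendsto (fun s : ℝ => x0 + s • bs i) (𝓝 0) (𝓝 x0) := by
      have : Continuous (fun s : ℝ => x0 + s • bs i) := by fun_prop
      simpa using this.tendsto 0
    have hnorm : ∀ s : ℝ, ‖x0 + s • bs i‖ ^ 2 = ‖x0‖ ^ 2 + 2 * ⟪x0, bs i⟫_ℝ * s + s ^ 2 := by
      intro s
      rw [norm_add_sq_real, inner_smul_right, norm_smul, bs.orthonormal.1 i]
      simp
      ring
    have hmin' : IsLocalMin (fun s : ℝ => u (x0 + s • bs i) -
        g (‖x0‖ ^ 2 + 2 * ⟪x0, bs i⟫_ℝ * s + s ^ 2)) 0 := by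
      have h1 : ∀ᶠ s in 𝓝 (0 : ℝ), u x0 - g (‖x0‖ ^ 2) ≤
          u (x0 + s • bs i) - g (‖x0 + s • bs i‖ ^ 2) := hLc.eventually hmin
      filter_upwards [h1] with s hs
      simpa [hnorm] using hs
    have h := second_deriv_nonneg_of_isLocalMin hmin'
      (by filter_upwards [hu1, hr1] with t h1 h2 using h1.sub h2) (hu2.sub hr2)
    linarith
  rw [laplacian_eq_iteratedFDeriv_orthonormalBasis u bs]
  calc 4 * ‖x0‖ ^ 2 * g2 + 2 * (Fintype.card ι : ℝ) * g1 (‖x0‖ ^ 2)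
      = ∑ i, (g2 * (2 * ⟪x0, bs i⟫_ℝ) ^ 2 + g1 (‖x0‖ ^ 2) * 2) := by
        rw [Finset.sum_add_distrib, Finset.sum_const, ← bs.sum_sq_inner_left x0, Finset.mul_sum,
          Finset.sum_mul]
        simp only [Finset.card_univ, nsmul_eq_mul]
        congr 1
        · apply Finset.sum_congr rfl
          intro i _
          ring
        · ring
    _ ≤ ∑ i, iteratedFDeriv ℝ 2 u x0 ![bs i, bs i] := Finset.sum_le_sum (fun i _ => key i)

/-- Comparison principle on an annulus with a radial comparison function `g(‖x‖²)`. -/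
theorem comparison_annulus {ι : Type*} [Fintype ι] [FiniteDimensional ℝ E]
    (bs : OrthonormalBasis ι ℝ E)
    {u : E → ℝ} (hu : ContDiffOn ℝ 2 u {0}ᶜ) {g g1 g2 : ℝ → ℝ}
    (hg : ∀ s, 0 < s → HasDerivAt g (g1 s) s) (hg1 : ∀ s, 0 < s → HasDerivAt g1 (g2 s) s)
    {r1 r2 : ℝ} (h0 : 0 < r1)
    (hlap : ∀ x, r1 < ‖x‖ → ‖x‖ < r2 →
      Δ u x < 4 * ‖x‖ ^ 2 * g2 (‖x‖ ^ 2) + 2 * (Fintype.card ι : ℝ) * g1 (‖x‖ ^ 2))
    (hb1 : ∀ x, ‖x‖ = r1 → g (‖x‖ ^ 2) ≤ u x) (hb2 : ∀ x, ‖x‖ = r2 → g (‖x‖ ^ 2) ≤ u x) :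
    ∀ x, r1 ≤ ‖x‖ → ‖x‖ ≤ r2 → g (‖x‖ ^ 2) ≤ u x := by
  intro x hx1 hx2
  set K : Set E := {y | r1 ≤ ‖y‖} ∩ Metric.closedBall 0 r2 with hKdef
  have hK : IsCompact K :=
    (isCompact_closedBall 0 r2).inter_left (isClosed_le continuous_const continuous_norm)
  have hne : ∀ y ∈ K, y ≠ 0 := by
    intro y hy h
    have : r1 ≤ ‖y‖ := hy.1
    rw [h, norm_zero] at this
    linarith
  have hat : ∀ y, y ≠ 0 → ContDiffAt ℝ 2 u y := fun y hy =>
    hu.contDiffAt (isOpen_compl_singleton.mem_nhds hy)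
  have hcont : ContinuousOn (fun y => u y - g (‖y‖ ^ 2)) K := by
    intro y hy
    have hy0 := hne y hy
    have h1 : ContinuousAt u y := (hat y hy0).continuousAt
    have hpos : 0 < ‖y‖ ^ 2 := by positivity
    have h2 : ContinuousAt (fun y : E => g (‖y‖ ^ 2)) y :=
      ContinuousAt.comp (f := fun y : E => ‖y‖ ^ 2) (hg _ hpos).continuousAt
        (by fun_prop)
    exact (h1.sub h2).continuousWithinAt
  have hxK : x ∈ K := ⟨hx1, by simpa using hx2⟩
  obtain ⟨x0, hx0K, hx0min⟩ := hK.exists_isMinOn ⟨x, hxK⟩ hcont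
  have hx01 : r1 ≤ ‖x0‖ := hx0K.1
  have hx02 : ‖x0‖ ≤ r2 := by simpa using hx0K.2
  have hw0 : 0 ≤ u x0 - g (‖x0‖ ^ 2) := by
    rcases hx01.eq_or_lt with h1 | h1
    · linarith [hb1 x0 h1.symm]
    rcases hx02.eq_or_lt with h2 | h2
    · linarith [hb2 x0 h2]
    exfalso
    have hopen : IsOpen {y : E | r1 < ‖y‖ ∧ ‖y‖ < r2} :=
      (isOpen_lt continuous_const continuous_norm).inter
        (isOpen_lt continuous_norm continuous_const)
    have hsub : {y : E | r1 < ‖y‖ ∧ ‖y‖ < r2} ⊆ K := by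
      intro y hy
      exact ⟨hy.1.le, by simpa using hy.2.le⟩
    have hnhds : K ∈ 𝓝 x0 := Filter.mem_of_superset (hopen.mem_nhds ⟨h1, h2⟩) hsub
    have hloc : IsLocalMin (fun y => u y - g (‖y‖ ^ 2)) x0 := hx0min.isLocalMin hnhds
    have hpos : 0 < ‖x0‖ ^ 2 := by
      have := hne x0 hx0K
      positivity
    have hev : ∀ᶠ s in 𝓝 (‖x0‖ ^ 2), HasDerivAt g (g1 s) s := by
      filter_upwards [lt_mem_nhds hpos] with s hs using hg s hs
    have := laplacian_ge_of_isLocalMin bs (hat x0 (hne x0 hx0K)) hev (hg1 _ hpos) hloc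
    linarith [hlap x0 h1 h2]
  have := hx0min hxK
  simp only [Set.mem_setOf_eq] at this
  linarith

end Vale.Agent.Lib.P100
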