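import Vale.Agent.Lib.P100.MaxPrinciple

/-!
# Positive strictly superharmonic functions on the punctured plane do not exist
-/

open InnerProductSpace Filter Topology Laplacian

namespace Vale.Agent.Lib.P100

variable {E : Type*} [NormedAddCommGroup E] [InnerProductSpace ℝ E]

/-- Comparison with `a + b log ‖x‖²`, which is harmonic in two dimensions. -/
theorem log_comparison {ι : Type*} [Fintype ι] [FiniteDimensional ℝ E]
    (bs : OrthonormalBasis ι ℝ E) (hcard : Fintype.card ι = 2)
    {u : E → ℝ} (hu : ContDiffOn ℝ 2 u {0}ᶜ) (hneg : ∀ x, x ≠ 0 → Δ u x < 0)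
    (a b : ℝ) {r1 r2 : ℝ} (h0 : 0 < r1)
    (hb1 : ∀ x, ‖x‖ = r1 → a + b * Real.log (‖x‖ ^ 2) ≤ u x)
    (hb2 : ∀ x, ‖x‖ = r2 → a + b * Real.log (‖x‖ ^ 2) ≤ u x) :
    ∀ x, r1 ≤ ‖x‖ → ‖x‖ ≤ r2 → a + b * Real.log (‖x‖ ^ 2) ≤ u x := by
  refine comparison_annulus bs hu (g := fun s => a + b * Real.log s) (g1 := fun s => b * s⁻¹)
    (g2 := fun s => b * (-(s ^ 2)⁻¹)) ?_ ?_ h0 ?_ hb1 hb2
  · intro s hs
    exact ((Real.hasDerivAt_log hs.ne').const_mul b).const_add a
  · intro s hs
    exact (hasDerivAt_inv hs.ne').const_mul b
  · intro x hx1 _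
    have hx0 : 0 < ‖x‖ := h0.trans hx1
    have hx : x ≠ 0 := norm_pos_iff.mp hx0
    have h := hneg x hx
    rw [hcard]
    have : 4 * ‖x‖ ^ 2 * (b * (-((‖x‖ ^ 2) ^ 2)⁻¹)) + 2 * ((2 : ℕ) : ℝ) * (b * (‖x‖ ^ 2)⁻¹) = 0 := by
      field_simp
      push_cast
      ring
    rw [this]
    exact h

theorem no_positive_superharmonic_planar {ι : Type*} [Fintype ι] [FiniteDimensional ℝ E]
    (bs : OrthonormalBasis ι ℝ E) (hcard : Fintype.card ι = 2)
    {u : E → ℝ} (hu : ContDiffOn ℝ 2 u {0}ᶜ) (hpos : ∀ x, 0 < u x)
    (hneg : ∀ x, x ≠ 0 → Δ u x < 0) : False := by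
  have hι : Nonempty ι := by
    rw [← Fintype.card_pos_iff, hcard]; norm_num
  obtain ⟨i0⟩ := hι
  have hat : ∀ y, y ≠ 0 → ContDiffAt ℝ 2 u y := fun y hy =>
    hu.contDiffAt (isOpen_compl_singleton.mem_nhds hy)
  have hSne : (Metric.sphere (0 : E) 1).Nonempty := ⟨bs i0, by simp⟩
  have hScont : ContinuousOn u (Metric.sphere (0 : E) 1) := by
    intro y hy
    have hy1 : ‖y‖ = 1 := by simpa using hy
    have hy0 : y ≠ 0 := by
      intro h; rw [h, norm_zero] at hy1; norm_num at hy1
    exact (hat y hy0).continuousAt.continuousWithinAt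
  obtain ⟨x1, hx1S, hx1min⟩ := (isCompact_sphere (0 : E) 1).exists_isMinOn hSne hScont
  have hx1n : ‖x1‖ = 1 := by simpa using hx1S
  have hx10 : x1 ≠ 0 := by
    intro h; rw [h, norm_zero] at hx1n; norm_num at hx1n
  set m := u x1 with hm
  have hmpos : 0 < m := hpos x1
  have hsph : ∀ x, ‖x‖ = 1 → m ≤ u x := by
    intro x hx
    exact hx1min (by simpa using hx)
  -- lower bound outside
  have key : ∀ x, x ≠ 0 → m ≤ u x := by
    intro x hx
    by_contra hlt
    push Not at hlt
    have hxpos : 0 < ‖x‖ := norm_pos_iff.mpr hx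
    set d := m - u x with hd
    have hdpos : 0 < d := by linarith
    rcases le_total 1 ‖x‖ with h1 | h1
    · set l := Real.log ‖x‖ with hl
      have hl0 : 0 ≤ l := Real.log_nonneg h1
      set T := m * l / d + l + 1 with hT
      have hTpos : 0 < T := by positivity
      have hlT : l ≤ T := by
        have : 0 ≤ m * l / d := by positivity
        linarith
      have hcmp := log_comparison bs hcard hu hneg m (-(m / (2 * T))) (r1 := 1)
        (r2 := Real.exp T) one_pos
        (by
          intro y hy
          rw [hy]; simpa using hsph y hy)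
        (by
          intro y hy
          rw [hy, Real.log_pow, Real.log_exp]
          have : m + -(m / (2 * T)) * (((2 : ℕ) : ℝ) * T) = 0 := by
            field_simp
            push_cast
            ring
          rw [this]
          exact (hpos y).le)
        x h1 (by
          rw [← Real.exp_log hxpos]
          exact Real.exp_le_exp.mpr hlT)
      rw [Real.log_pow] at hcmp
      have h2 : m / (2 * T) * (((2 : ℕ) : ℝ) * l) = m * l / T := by
        field_simp
        push_cast
        ring
      have h3 : m * l / T < d := by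
        rw [div_lt_iff₀ hTpos]
        have : m * l = d * (m * l / d) := by field_simp
        have h4 : d * (m * l / d) < d * T := by
          apply mul_lt_mul_of_pos_left _ hdpos
          linarith
        linarith
      have h5 : m + -(m / (2 * T)) * (((2 : ℕ) : ℝ) * l) = m - m * l / T := by
        rw [← h2]; ring
      rw [← hl, h5] at hcmp
      linarith
    · set l := -Real.log ‖x‖ with hl
      have hl0 : 0 ≤ l := by
        have := Real.log_nonpos hxpos.le h1
        linarith
      set T := m * l / d + l + 1 with hT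
      have hTpos : 0 < T := by positivity
      have hlT : l ≤ T := by
        have : 0 ≤ m * l / d := by positivity
        linarith
      have hcmp := log_comparison bs hcard hu hneg m (m / (2 * T)) (r1 := Real.exp (-T))
        (r2 := 1) (Real.exp_pos _)
        (by
          intro y hy
          rw [hy, Real.log_pow, Real.log_exp]
          have : m + (m / (2 * T)) * (((2 : ℕ) : ℝ) * -T) = 0 := by
            field_simp
            push_cast
            ring
          rw [this]
          exact (hpos y).le)
        (by
          intro y hy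
          rw [hy]; simpa using hsph y hy)
        x (by
          rw [← Real.exp_log hxpos]
          apply Real.exp_le_exp.mpr
          linarith) h1
      rw [Real.log_pow] at hcmp
      have hlog : Real.log ‖x‖ = -l := by rw [hl]; ring
      have h2 : m / (2 * T) * (((2 : ℕ) : ℝ) * l) = m * l / T := by
        field_simp
        push_cast
        ring
      have h3 : m * l / T < d := by
        rw [div_lt_iff₀ hTpos]
        have : m * l = d * (m * l / d) := by field_simp
        have h4 : d * (m * l / d) < d * T := by
          apply mul_lt_mul_of_pos_left _ hdpos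
          linarith
        linarith
      have h5 : m + (m / (2 * T)) * (((2 : ℕ) : ℝ) * -l) = m - m * l / T := by
        rw [← h2]; ring
      rw [hlog, h5] at hcmp
      linarith
  have hloc : IsLocalMin (fun x => u x - (fun _ : ℝ => (0 : ℝ)) (‖x‖ ^ 2)) x1 := by
    have : ∀ᶠ y in 𝓝 x1, y ≠ 0 := isOpen_compl_singleton.mem_nhds hx10
    filter_upwards [this] with y hy
    simpa using key y hy
  have h := laplacian_ge_of_isLocalMin bs (hat x1 hx10) (g := fun _ => 0) (g1 := fun _ => 0)
    (g2 := 0) (Eventually.of_forall fun s => hasDerivAt_const s (0 : ℝ))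
    (hasDerivAt_const _ (0 : ℝ)) hloc
  have h' := hneg x1 hx10
  simp at h
  linarith

end Vale.Agent.Lib.P100
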