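import Vale.Agent.Lib.P100.MaxPrinciple

/-!
# An inverse-square source forces blow-up at the origin
-/

open InnerProductSpace Filter Topology Laplacian

namespace Vale.Agent.Lib.P100

variable {E : Type*} [NormedAddCommGroup E] [InnerProductSpace ℝ E]

/-- If `u ≥ 0` is bounded on the punctured unit ball, it cannot satisfy `Δ u ≤ -c / ‖x‖²` there. -/
theorem no_bounded_inverse_square {ι : Type*} [Fintype ι] [FiniteDimensional ℝ E]
    (bs : OrthonormalBasis ι ℝ E) (hcard : 3 ≤ Fintype.card ι)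
    {u : E → ℝ} (hu : ContDiffOn ℝ 2 u {0}ᶜ) (hpos : ∀ x, 0 ≤ u x)
    {M c : ℝ} (hM : ∀ x, ‖x‖ ≤ 1 → u x ≤ M) (hc : 0 < c)
    (hlap : ∀ x, 0 < ‖x‖ → ‖x‖ < 1 → Δ u x ≤ -(c / ‖x‖ ^ 2)) : False := by
  have hι : Nonempty ι := by
    rw [← Fintype.card_pos_iff]; omega
  obtain ⟨i0⟩ := hι
  set N : ℝ := (Fintype.card ι : ℝ) with hN
  have hN3 : 3 ≤ N := by rw [hN]; exact_mod_cast hcard
  have hN2 : 0 < N - 2 := by linarith
  have hM0 : 0 ≤ M := (hpos 0).trans (hM 0 (by simp))
  set κ : ℝ := c / (2 * (N - 2)) with hκ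
  have hκpos : 0 < κ := by positivity
  have hκN : (N - 2) * κ = c / 2 := by
    rw [hκ]; field_simp
  set T : ℝ := 4 * M / κ + 4 * κ / c + 1 with hT
  have hTpos : 0 < T := by positivity
  have hT1 : M < κ * T / 4 := by
    have h1 : κ * T / 4 = M + κ * κ / c + κ / 4 := by
      rw [hT]; field_simp
    have h2 : 0 < κ * κ / c := by positivity
    linarith
  set ε : ℝ := κ / T with hε
  have hεpos : 0 < ε := by positivity
  have hεT : ε * T = κ := by rw [hε]; field_simp
  have hε1 : 4 * ε < c := by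
    have h1 : 4 * κ / c < T := by
      have : 0 ≤ 4 * M / κ := by positivity
      linarith
    rw [div_lt_iff₀ hc] at h1
    rw [hε]
    have : 4 * (κ / T) = 4 * κ / T := by ring
    rw [this, div_lt_iff₀ hTpos]
    linarith
  have hcmp := comparison_annulus bs hu
    (g := fun s => -(κ / 2) * Real.log s - (ε / 4) * (Real.log s) ^ 2)
    (g1 := fun s => (-(κ / 2) - (ε / 2) * Real.log s) * s⁻¹)
    (g2 := fun s => (-((ε / 2) * s⁻¹)) * s⁻¹ + (-(κ / 2) - (ε / 2) * Real.log s) * (-(s ^ 2)⁻¹))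
    (r1 := Real.exp (-T)) (r2 := 1)
    (by
      intro s hs
      have h1 := Real.hasDerivAt_log hs.ne'
      have h2 : HasDerivAt (fun y => -(κ / 2) * Real.log y - (ε / 4) * (Real.log y) ^ 2)
          (-(κ / 2) * s⁻¹ - ε / 4 * (((2 : ℕ) : ℝ) * Real.log s ^ (2 - 1) * s⁻¹)) s :=
        (h1.const_mul (-(κ / 2))).sub ((h1.pow 2).const_mul (ε / 4))
      exact h2.congr_deriv (by push_cast; ring))
    (by
      intro s hs
      have h1 := Real.hasDerivAt_log hs.ne'
      have h2 := ((h1.const_mul (ε / 2)).const_sub (-(κ / 2))).mul (hasDerivAt_inv hs.ne')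
      exact h2)
    (Real.exp_pos _)
    (by
      intro x hx1 hx2
      have hx0 : 0 < ‖x‖ := (Real.exp_pos _).trans hx1
      have h := hlap x hx0 hx2
      refine lt_of_le_of_lt h ?_
      have hlog : Real.log (‖x‖ ^ 2) ≤ 0 := by
        apply Real.log_nonpos (by positivity)
        nlinarith
      set L := Real.log (‖x‖ ^ 2) with hL
      set s := ‖x‖ ^ 2 with hs
      have hspos : 0 < s := by positivity
      have e1 : 4 * s * ((-((ε / 2) * s⁻¹)) * s⁻¹ + (-(κ / 2) - (ε / 2) * L) * (-(s ^ 2)⁻¹))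
          + 2 * N * ((-(κ / 2) - (ε / 2) * L) * s⁻¹)
          = (-((N - 2) * κ) - 2 * ε - (N - 2) * ε * L) / s := by
        field_simp
        ring
      rw [e1, ← neg_div]
      apply div_lt_div_of_pos_right _ hspos
      rw [hκN]
      have : 0 ≤ (N - 2) * ε * (-L) := by
        apply mul_nonneg (by positivity); linarith
      nlinarith)
    (by
      intro y hy
      rw [hy, Real.log_pow, Real.log_exp]
      have : -(κ / 2) * (((2 : ℕ) : ℝ) * -T) - ε / 4 * (((2 : ℕ) : ℝ) * -T) ^ 2 = 0 := by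
        push_cast
        have : ε * T * T = κ * T := by rw [hεT]
        nlinarith
      rw [this]
      exact hpos y)
    (by
      intro y hy
      rw [hy]
      simpa using hpos y)
  set x : E := Real.exp (-(T / 2)) • bs i0 with hx
  have hxn : ‖x‖ = Real.exp (-(T / 2)) := by
    rw [hx, norm_smul, bs.orthonormal.1 i0, mul_one, Real.norm_eq_abs, abs_of_pos (Real.exp_pos _)]
  have hx1 : ‖x‖ ≤ 1 := by
    rw [hxn]
    apply Real.exp_le_one_iff.mpr
    linarith
  have h := hcmp x (by rw [hxn]; apply Real.exp_le_exp.mpr; linarith) hx1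
  rw [hxn, Real.log_pow, Real.log_exp] at h
  have e2 : -(κ / 2) * (((2 : ℕ) : ℝ) * -(T / 2)) - ε / 4 * (((2 : ℕ) : ℝ) * -(T / 2)) ^ 2
      = κ * T / 4 := by
    push_cast
    have : ε * T * T = κ * T := by rw [hεT]
    nlinarith
  rw [e2] at h
  linarith [hM x hx1]

end Vale.Agent.Lib.P100
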